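import Vale.Agent.P207.N6.H58.Pic
import Vale.Agent.P207.H469.T2core

/-!
# P207, line N6, row T2-GLUE: `T2d` from its inputs

Inputs (as propositions over `P : Pic L V`): `DlB` (bounds of the generating functions), `RateP`,
`AngR` (the rates of the angle), `DeltaP` (the function `D` to the first order), `NearP` (small
angle means that `ξ` is close to `em x`).
-/

set_option linter.unusedSectionVars false

open Set Filter Topology Metric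
open scoped ContDiff

noncomputable section

namespace Vale.Agent.P207.N4.W.H469

open Vale.Agent.P207.N3 Vale.Agent.P207.H469

variable [Dim]

variable {Γ X B : Type} [Group Γ] [MetricSpace X] [ProperSpace X] [MulAction Γ X]
  [IsIsometricSMul Γ X] [TopologicalSpace B] [CompactSpace B] [T2Space B] [MulAction Γ B]
  [ContinuousConstSMul Γ B] [MeasurableSpace B] [BorelSpace B] {L : Leaf Γ X B}
  {V : Type} [NormedAddCommGroup V] [NormedSpace ℝ V] [FiniteDimensional ℝ V]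

variable (P : Pic L V)

/-- (A2) the generating functions are smooth, with uniform bounds -/
def DlB : Prop := (∀ x ξ, ContDiffOn ℝ ∞ (P.dl x ξ) (ball 0 1)) ∧
  ∀ k : ℕ, ∃ C, ∀ x ξ, ∀ q ∈ ball (0 : E2) 1, ‖iteratedFDeriv ℝ k (P.dl x ξ) q‖ ≤ C

/-- (ANGLE) the rates of the angle between the directions from `em x` and from `ξ` -/
def AngR : Prop := ∃ C, 1 ≤ C ∧ ∀ x ξ, 0 < P.Bu.nu x ξ 0 → ∀ t, 0 ≤ t →
  0 < P.Bu.nu (L.φ t x) ξ 0 ∧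
  ‖P.gr (L.φ t x) ξ 0‖ ≤ C * Real.exp (-(P.Ra.a * t)) * ‖P.gr x ξ 0‖ ∧
  ‖P.gr x ξ 0‖ ≤ C * Real.exp (P.Ra.b * t) * ‖P.gr (L.φ t x) ξ 0‖

/-- (DELTA) the function `D`, to the first order -/
def DeltaP : Prop := ∃ ε > 0, ∃ K, 0 ≤ K ∧ ∀ x ξ, P.Nr ε x ξ → ∀ q ∈ ball (0 : E2) 1,
  |P.S.A.D ξ (P.Af.pt x q) - P.S.A.D (L.em x) (P.Af.pt x q) -
    (P.Bu.b ξ x - P.Bu.b (L.em x) x) - P.dl x ξ q| ≤ K * ‖P.gr x ξ q‖ ^ 2

/-- (NEAR) a small angle means that `ξ` is close to `em x`, uniformly -/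
def NearP : Prop := (∀ s > 0, ∃ ε > 0, ∀ x ξ, P.Nr ε x ξ → ∀ q ∈ ball (0 : E2) 1,
    ‖P.gr x ξ q‖ ≤ s) ∧
  (∀ ε > 0, ∃ ε' > 0, ∀ x ξ, P.Nr ε' x ξ → P.Nr ε (L.φ (-1) x) ξ) ∧
  ∀ x ξ, 0 < P.Bu.nu x ξ 0 → P.gr x ξ 0 = 0 → ξ = L.em x

variable {P}

theorem norm_fderiv_eq (f : E2 → ℝ) (q : E2) : ‖fderiv ℝ f q‖ = ‖gradient f q‖ :=
  (LinearIsometryEquiv.norm_map (InnerProductSpace.toDual ℝ E2).symm (fderiv ℝ f q)).symm

theorem dl_em (x : X) : P.dl x (L.em x) = fun _ => 0 := by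
  funext q
  simp [Pic.dl]

theorem Nr.mono {ε ε' : ℝ} (h : ε ≤ ε') {x : X} {ξ : B} (hN : P.Nr ε x ξ) : P.Nr ε' x ξ :=
  ⟨hN.1, hN.2.trans h⟩

/-- a natural time step which is at least `T` -/
theorem exists_step : ∃ N : ℕ, 0 < N ∧ P.Ra.T ≤ (N : ℝ) := by
  obtain ⟨N, hN⟩ := exists_nat_ge P.Ra.T
  refine ⟨N, ?_, hN⟩
  have h1 := P.Ra.T_pos
  have h2 : (0 : ℝ) < N := h1.trans_le hN
  exact_mod_cast h2

/-- the step back, for `N` units of time -/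
theorem nr_back (hc : ∀ ε > 0, ∃ ε' > 0, ∀ x ξ, P.Nr ε' x ξ → P.Nr ε (L.φ (-1) x) ξ) (N : ℕ) :
    ∀ ε > 0, ∃ ε' > 0, ∀ x ξ, P.Nr ε' x ξ → P.Nr ε (L.φ (-(N : ℝ)) x) ξ := by
  induction N with
  | zero =>
    intro ε hε
    refine ⟨ε, hε, fun x ξ h => ?_⟩
    rwa [Nat.cast_zero, neg_zero, L.φ_zero]
  | succ N ih =>
    intro ε hε
    obtain ⟨ε₁, hε₁, h1⟩ := hc ε hε
    obtain ⟨ε₂, hε₂, h2⟩ := ih ε₁ hε₁
    refine ⟨ε₂, hε₂, fun x ξ h => ?_⟩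
    have h3 := h1 _ ξ (h2 x ξ h)
    rw [← L.φ_add] at h3
    have h4 : (-1 : ℝ) + -(N : ℝ) = -((N + 1 : ℕ) : ℝ) := by push_cast; ring
    rwa [h4] at h3

/-- the data of one orbit, forward from a frame at the first scale -/
theorem orbD (hB : DlB P) (hR : P.RateP) {N : ℕ} (hTN : P.Ra.T ≤ (N : ℝ)) {C₁ : ℝ}
    (hC₁ : 1 ≤ C₁)
    (hA : ∀ x ξ, 0 < P.Bu.nu x ξ 0 → ∀ t, 0 ≤ t → 0 < P.Bu.nu (L.φ t x) ξ 0 ∧
      ‖P.gr (L.φ t x) ξ 0‖ ≤ C₁ * Real.exp (-(P.Ra.a * t)) * ‖P.gr x ξ 0‖ ∧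
      ‖P.gr x ξ 0‖ ≤ C₁ * Real.exp (P.Ra.b * t) * ‖P.gr (L.φ t x) ξ 0‖)
    {M : ℕ → ℝ} (hM : ∀ k x ξ, ∀ q ∈ ball (0 : E2) 1, ‖iteratedFDeriv ℝ k (P.dl x ξ) q‖ ≤ M k)
    {ε₁ K s₀ c₁ : ℝ} (hK : 0 ≤ K)
    (hD : ∀ x ξ, P.Nr ε₁ x ξ → ∀ q ∈ ball (0 : E2) 1,
      |P.S.A.D ξ (P.Af.pt x q) - P.S.A.D (L.em x) (P.Af.pt x q) -
        (P.Bu.b ξ x - P.Bu.b (L.em x) x) - P.dl x ξ q| ≤ K * ‖P.gr x ξ q‖ ^ 2)
    (hs : ∀ x ξ, P.Nr ε₁ x ξ → ∀ q ∈ ball (0 : E2) 1, ‖P.gr x ξ q‖ ≤ s₀)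
    {y : X} {ξ : B} (hy : P.Nr (ε₁ / C₁) y ξ) (hc : c₁ ≤ ‖P.gr y ξ 0‖) :
    T2.OrbD 1 (Real.exp (-(P.Ra.a * N))) (Real.exp (P.Ra.b * N)) (K + 1) C₁ s₀ c₁ M
      (fun j => P.dl (L.φ ((N : ℝ) * j) y) ξ)
      (fun j => ((P.Af.P N (L.φ ((N : ℝ) * j) y)).symm : E2 →L[ℝ] E2)) := by
  have hC0 : 0 < C₁ := by linarith
  have hN0 : (0 : ℝ) ≤ N := Nat.cast_nonneg N
  have hNr : ∀ j : ℕ, P.Nr ε₁ (L.φ ((N : ℝ) * j) y) ξ := by
    intro j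
    have hj : (0 : ℝ) ≤ (N : ℝ) * j := mul_nonneg hN0 (Nat.cast_nonneg j)
    obtain ⟨h1, h2, -⟩ := hA y ξ hy.1 ((N : ℝ) * j) hj
    refine ⟨h1, h2.trans ?_⟩
    have h3 : Real.exp (-(P.Ra.a * ((N : ℝ) * j))) ≤ 1 := by
      rw [Real.exp_le_one_iff]
      have := mul_nonneg P.Ra.a_pos.le hj
      linarith
    have h4 := hy.2
    calc C₁ * Real.exp (-(P.Ra.a * ((N : ℝ) * j))) * ‖P.gr y ξ 0‖ ≤ C₁ * 1 * (ε₁ / C₁) := by
          gcongr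
      _ = ε₁ := by field_simp
  have hLn : ∀ z : X, ‖((P.Af.P N z).symm : E2 →L[ℝ] E2)‖ ≤ Real.exp (-(P.Ra.a * N)) := by
    intro z
    refine ContinuousLinearMap.opNorm_le_bound _ (Real.exp_pos _).le fun w => ?_
    have h1 := (hR N hTN z ((P.Af.P N z).symm w)).1
    rw [ContinuousLinearEquiv.apply_symm_apply] at h1
    have h2 : ‖(P.Af.P N z).symm w‖ = Real.exp (-(P.Ra.a * N)) *
        (Real.exp (P.Ra.a * N) * ‖(P.Af.P N z).symm w‖) := by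
      rw [← mul_assoc, ← Real.exp_add, neg_add_cancel, Real.exp_zero, one_mul]
    change ‖(P.Af.P N z).symm w‖ ≤ _
    rw [h2]
    gcongr
  have hmaps : ∀ z : X, ∀ u ∈ ball (0 : E2) 1,
      ((P.Af.P N z).symm : E2 →L[ℝ] E2) u ∈ ball (0 : E2) 1 := by
    intro z u hu
    rw [mem_ball_zero_iff] at hu ⊢
    have h1 := ((P.Af.P N z).symm : E2 →L[ℝ] E2).le_opNorm u
    have h2 : Real.exp (-(P.Ra.a * N)) ≤ 1 := by
      rw [Real.exp_le_one_iff]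
      linarith [mul_nonneg P.Ra.a_pos.le hN0]
    have h3 : ‖((P.Af.P N z).symm : E2 →L[ℝ] E2)‖ * ‖u‖ ≤ 1 * ‖u‖ :=
      mul_le_mul_of_nonneg_right ((hLn z).trans h2) (norm_nonneg _)
    linarith
  refine ⟨fun j => hB.1 _ _, fun j k u hu => hM k _ _ u hu, fun j => hLn _, ?_,
    fun j u hu => ?_, ?_, ?_⟩
  · intro j s s' h1 h2
    set z : X := L.φ ((N : ℝ) * j) y with hz
    have hz' : L.φ ((N : ℝ) * ((j + 1 : ℕ) : ℝ)) y = L.φ N z := by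
      rw [hz, ← L.φ_add]
      congr 1
      push_cast
      ring
    simp only [hz'] at h2 ⊢
    refine ⟨(P.Bu.b ξ z - P.Bu.b (L.em z) z) -
      (P.Bu.b ξ (L.φ N z) - P.Bu.b (L.em (L.φ N z)) (L.φ N z)), fun u hu => ?_⟩
    have hN' : P.Nr ε₁ (L.φ N z) ξ := by rw [← hz']; exact hNr (j + 1)
    set v : E2 := ((P.Af.P N z).symm : E2 →L[ℝ] E2) u with hv
    have hpt : P.Af.pt (L.φ N z) u = P.Af.pt z v := by
      have h3 := P.Af.flow N z v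
      have h4 : P.Af.P N z v = u := (P.Af.P N z).apply_symm_apply u
      rwa [h4] at h3
    have h5 := hD z ξ (hNr j) v (hmaps z u hu)
    have h6 := hD (L.φ N z) ξ hN' u hu
    rw [hpt, L.em_φ N z] at h6
    have h7 : ‖P.gr z ξ v‖ ≤ s := by
      rw [Pic.gr, ← norm_fderiv_eq]
      exact h1 v (hmaps z u hu)
    have h8 : ‖P.gr (L.φ N z) ξ u‖ ≤ s' := by
      rw [Pic.gr, ← norm_fderiv_eq]
      exact h2 u hu
    have h9 : K * ‖P.gr z ξ v‖ ^ 2 ≤ (K + 1) * s ^ 2 := by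
      have : ‖P.gr z ξ v‖ ^ 2 ≤ s ^ 2 := pow_le_pow_left₀ (norm_nonneg _) h7 2
      have h10 := mul_le_mul_of_nonneg_left this hK
      nlinarith [sq_nonneg s]
    have h10 : K * ‖P.gr (L.φ N z) ξ u‖ ^ 2 ≤ (K + 1) * s' ^ 2 := by
      have : ‖P.gr (L.φ N z) ξ u‖ ^ 2 ≤ s' ^ 2 := pow_le_pow_left₀ (norm_nonneg _) h8 2
      have h10 := mul_le_mul_of_nonneg_left this hK
      nlinarith [sq_nonneg s']
    rw [L.em_φ N z]
    rw [abs_le] at h5 h6 ⊢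
    constructor <;> nlinarith [h5.1, h5.2, h6.1, h6.2]
  · rw [norm_fderiv_eq]
    exact hs _ _ (hNr j) u hu
  · intro i j hij
    rw [norm_fderiv_eq, norm_fderiv_eq]
    have h1 := (hA (L.φ ((N : ℝ) * i) y) ξ (hNr i).1 ((N : ℝ) * ((j - i : ℕ) : ℝ))
      (mul_nonneg hN0 (Nat.cast_nonneg _))).2.2
    have h2 : L.φ ((N : ℝ) * ((j - i : ℕ) : ℝ)) (L.φ ((N : ℝ) * i) y) = L.φ ((N : ℝ) * j) y := by
      rw [← L.φ_add]
      congr 1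
      rw [Nat.cast_sub hij]
      ring
    rw [h2] at h1
    have h3 : Real.exp (P.Ra.b * ((N : ℝ) * ((j - i : ℕ) : ℝ))) =
        Real.exp (P.Ra.b * N) ^ (j - i) := by
      rw [← Real.exp_nat_mul]
      congr 1
      ring
    rw [h3] at h1
    exact h1
  · rw [norm_fderiv_eq, Nat.cast_zero, mul_zero, L.φ_zero]
    exact hc

/-- the first scale of an orbit -/
theorem exists_first {N : ℕ} (hN0 : 0 < N) {ε₂ c₁ C₁ : ℝ} (hC₁ : 1 ≤ C₁)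
    (hA : ∀ x ξ, 0 < P.Bu.nu x ξ 0 → ∀ t, 0 ≤ t → 0 < P.Bu.nu (L.φ t x) ξ 0 ∧
      ‖P.gr (L.φ t x) ξ 0‖ ≤ C₁ * Real.exp (-(P.Ra.a * t)) * ‖P.gr x ξ 0‖ ∧
      ‖P.gr x ξ 0‖ ≤ C₁ * Real.exp (P.Ra.b * t) * ‖P.gr (L.φ t x) ξ 0‖)
    (hc : ∀ x ξ, P.Nr c₁ x ξ → P.Nr ε₂ (L.φ (-(N : ℝ)) x) ξ)
    {x : X} {ξ : B} (hx : P.Nr ε₂ x ξ) (ht : 0 < ‖P.gr x ξ 0‖) :
    ∃ (n : ℕ) (y : X), L.φ ((N : ℝ) * n) y = x ∧ P.Nr ε₂ y ξ ∧ c₁ ≤ ‖P.gr y ξ 0‖ := by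
  have hN1 : (0 : ℝ) < N := by exact_mod_cast hN0
  by_contra hno
  push Not at hno
  have hall : ∀ n : ℕ, P.Nr ε₂ (L.φ (-((N : ℝ) * n)) x) ξ := by
    intro n
    induction n with
    | zero => rw [Nat.cast_zero, mul_zero, neg_zero, L.φ_zero]; exact hx
    | succ n ih =>
      have h1 : L.φ ((N : ℝ) * n) (L.φ (-((N : ℝ) * n)) x) = x := by
        rw [← L.φ_add, add_neg_cancel, L.φ_zero]
      have h2 := hno n _ h1 ih
      have h3 := hc _ ξ ⟨ih.1, h2.le⟩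
      rw [← L.φ_add] at h3
      have h4 : -(N : ℝ) + -((N : ℝ) * n) = -((N : ℝ) * ((n + 1 : ℕ) : ℝ)) := by push_cast; ring
      rwa [h4] at h3
  have hε : 0 ≤ ε₂ := (norm_nonneg _).trans hx.2
  have hle : ∀ n : ℕ, ‖P.gr x ξ 0‖ ≤ C₁ * Real.exp (-(P.Ra.a * ((N : ℝ) * n))) * ε₂ := by
    intro n
    have h1 := (hA (L.φ (-((N : ℝ) * n)) x) ξ (hall n).1 ((N : ℝ) * n)
      (mul_nonneg hN1.le (Nat.cast_nonneg n))).2.1
    rw [← L.φ_add, add_neg_cancel, L.φ_zero] at h1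
    refine h1.trans ?_
    have := (hall n).2
    gcongr
  have hlim : Tendsto (fun n : ℕ => C₁ * Real.exp (-(P.Ra.a * ((N : ℝ) * n))) * ε₂) atTop
      (𝓝 0) := by
    have h1 : Tendsto (fun n : ℕ => P.Ra.a * ((N : ℝ) * (n : ℝ))) atTop atTop :=
      (tendsto_natCast_atTop_atTop.const_mul_atTop hN1).const_mul_atTop P.Ra.a_pos
    have h2 := ((Real.tendsto_exp_neg_atTop_nhds_zero.comp h1).const_mul C₁).mul_const ε₂
    simpa using h2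
  have := ge_of_tendsto' hlim hle
  linarith

/-- **T2 for the generating functions**, `1 < κ`, with the Harnack inequality. -/
theorem t2_aux (hB : DlB P) (hR : P.RateP) (hA : AngR P) (hD : DeltaP P) (hN : NearP P)
    {κ : ℝ} (hκ1 : 1 < κ) (hκ : κ * P.Ra.b < 2 * P.Ra.a) :
    ∃ H, 0 < H ∧ ∀ k : ℕ, 2 ≤ k → ∃ C, 0 ≤ C ∧ ∀ x ξ, 0 < P.Bu.nu x ξ 0 →
      ∀ q ∈ ball (0 : E2) 1, ‖P.gr x ξ q‖ ≤ H * ‖P.gr x ξ 0‖ ∧
        ‖iteratedFDeriv ℝ k (P.dl x ξ) q‖ ≤ C * ‖P.gr x ξ 0‖ ^ κ := by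
  obtain ⟨C₁, hC₁, hA'⟩ := hA
  obtain ⟨εD, hεD, K, hK, hD'⟩ := hD
  choose M hM using hB.2
  have hM' : ∀ k x ξ, ∀ q ∈ ball (0 : E2) 1, ‖iteratedFDeriv ℝ k (P.dl x ξ) q‖ ≤ M k :=
    fun k x ξ q hq => hM k x ξ q hq
  have hb : 0 < P.Ra.b := P.Ra.a_pos.trans_le P.Ra.a_le_b
  have hκ2 : κ < 2 := by
    by_contra h
    push Not at h
    have := mul_le_mul_of_nonneg_right h hb.le
    linarith [P.Ra.a_le_b]
  obtain ⟨N, hNp, hTN⟩ := exists_step (P := P)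
  have hN1 : (0 : ℝ) < N := by exact_mod_cast hNp
  have hlam0 : 0 ≤ Real.exp (-(P.Ra.a * N)) := (Real.exp_pos _).le
  have hlam1 : Real.exp (-(P.Ra.a * N)) < 1 := by
    rw [Real.exp_lt_one_iff]; linarith [mul_pos P.Ra.a_pos hN1]
  have hmu : 1 ≤ Real.exp (P.Ra.b * N) := Real.one_le_exp (mul_nonneg hb.le hN1.le)
  have hlm : Real.exp (-(P.Ra.a * N)) ^ 2 * Real.exp (P.Ra.b * N) ^ κ < 1 := by
    rw [← Real.exp_nat_mul, ← Real.exp_mul, ← Real.exp_add, Real.exp_lt_one_iff]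
    push_cast
    nlinarith
  obtain ⟨s₀, hs₀, hcore⟩ := T2.t2core (E := E2) one_pos hlam0 hlam1 hmu hκ1 hκ2 hlm
    (by linarith : 0 < K + 1) hC₁ M
  obtain ⟨ε, hε, hs⟩ := hN.1 s₀ hs₀
  set ε₁ : ℝ := min ε εD with hε₁
  have hε₁p : 0 < ε₁ := lt_min hε hεD
  have hC0 : 0 < C₁ := by linarith
  set ε₂ : ℝ := ε₁ / C₁ with hε₂
  have hε₂p : 0 < ε₂ := div_pos hε₁p hC0
  obtain ⟨c₁, hc₁, hc⟩ := nr_back hN.2.1 N ε₂ hε₂p
  obtain ⟨H, hH, hcore'⟩ := hcore c₁ hc₁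
  have hM1 : ∀ x ξ, ∀ q ∈ ball (0 : E2) 1, ‖P.gr x ξ q‖ ≤ |M 1| := fun x ξ q hq => by
    rw [Pic.gr, ← norm_fderiv_eq, ← norm_iteratedFDeriv_one]
    exact (hM' 1 x ξ q hq).trans (le_abs_self _)
  refine ⟨H + |M 1| / ε₂, by positivity, fun k hk => ?_⟩
  obtain ⟨C, hC, hmain⟩ := hcore' k hk
  refine ⟨C + |M k| / ε₂ ^ κ, by positivity, fun x ξ hnu q hq => ?_⟩
  rcases (norm_nonneg (P.gr x ξ 0)).eq_or_lt with h0 | h0
  · -- the same leaf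
    have h1 : ξ = L.em x := hN.2.2 x ξ hnu (norm_eq_zero.1 h0.symm)
    subst h1
    have h2 : P.gr x (L.em x) q = 0 := by
      rw [Pic.gr, dl_em]
      rw [← norm_eq_zero, ← norm_fderiv_eq]
      simp
    have h3 : iteratedFDeriv ℝ k (P.dl x (L.em x)) q = 0 := by
      rw [dl_em, iteratedFDeriv_const_of_ne (by omega : k ≠ 0)]
      rfl
    rw [h2, h3, norm_zero, norm_zero]
    constructor <;> positivity
  · by_cases hx : P.Nr ε₂ x ξ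
    · obtain ⟨n, y, hny, hy, hcy⟩ := exists_first hNp hC₁ hA' hc hx h0
      have horb := orbD hB hR hTN hC₁ hA' hM' (ε₁ := ε₁) (K := K) (s₀ := s₀) (c₁ := c₁) hK
        (fun x ξ h q hq => hD' x ξ (Nr.mono (min_le_right _ _) h) q hq)
        (fun x ξ h q hq => hs x ξ (Nr.mono (min_le_left _ _) h) q hq) hy hcy
      have h1 := hmain _ _ horb n q hq
      simp only [hny] at h1
      rw [norm_fderiv_eq, norm_fderiv_eq] at h1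
      refine ⟨h1.1.trans ?_, h1.2.trans ?_⟩
      · refine mul_le_mul_of_nonneg_right ?_ (norm_nonneg _)
        have : 0 ≤ |M 1| / ε₂ := by positivity
        linarith
      · refine mul_le_mul_of_nonneg_right ?_ (by positivity)
        have : 0 ≤ |M k| / ε₂ ^ κ := by positivity
        linarith
    · have h1 : ε₂ < ‖P.gr x ξ 0‖ := by
        by_contra h
        push Not at h
        exact hx ⟨hnu, h⟩
      refine ⟨(hM1 x ξ q hq).trans ?_, ((hM' k x ξ q hq).trans (le_abs_self _)).trans ?_⟩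
      · have h2 : |M 1| ≤ |M 1| / ε₂ * ‖P.gr x ξ 0‖ := by
          rw [div_mul_eq_mul_div, le_div_iff₀ hε₂p]
          exact mul_le_mul_of_nonneg_left h1.le (abs_nonneg _)
        have h3 : 0 ≤ H * ‖P.gr x ξ 0‖ := by positivity
        rw [add_mul]
        linarith
      · have h4 : ε₂ ^ κ ≤ ‖P.gr x ξ 0‖ ^ κ := Real.rpow_le_rpow hε₂p.le h1.le (by linarith)
        have h5 : 0 < ε₂ ^ κ := Real.rpow_pos_of_pos hε₂p κ
        have h2 : |M k| ≤ |M k| / ε₂ ^ κ * ‖P.gr x ξ 0‖ ^ κ := by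
          rw [div_mul_eq_mul_div, le_div_iff₀ h5]
          exact mul_le_mul_of_nonneg_left h4 (abs_nonneg _)
        have h3 : 0 ≤ C * ‖P.gr x ξ 0‖ ^ κ := by positivity
        rw [add_mul]
        linarith

/-- **(T2d)** for every `ε₀`. -/
theorem t2d_of (hB : DlB P) (hR : P.RateP) (hA : AngR P) (hD : DeltaP P) (hN : NearP P)
    (ε₀ : ℝ) : P.T2d ε₀ := by
  intro κ hκ k hk
  have hb : 0 < P.Ra.b := P.Ra.a_pos.trans_le P.Ra.a_le_b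
  have hab : P.Ra.b < 2 * P.Ra.a := by
    have := P.Ra.pinch
    have := P.Ra.a_pos
    linarith
  set κ' : ℝ := max κ ((1 + 2 * P.Ra.a / P.Ra.b) / 2) with hκ'
  have h1 : 1 < 2 * P.Ra.a / P.Ra.b := by rwa [lt_div_iff₀ hb, one_mul]
  have h2 : 1 < κ' := lt_of_lt_of_le (by linarith) (le_max_right _ _)
  have h3 : κ' * P.Ra.b < 2 * P.Ra.a := by
    rw [← lt_div_iff₀ hb]
    refine max_lt ?_ (by linarith)
    rwa [lt_div_iff₀ hb]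
  obtain ⟨H, -, hH⟩ := t2_aux hB hR hA hD hN h2 h3
  obtain ⟨C, hC, h4⟩ := hH k hk
  refine ⟨C * |ε₀| ^ (κ' - κ), fun x ξ hx q hq => ?_⟩
  have h5 := (h4 x ξ hx.1 q hq).2
  rcases (norm_nonneg (P.gr x ξ 0)).eq_or_lt with h0 | h0
  · rw [← h0, Real.zero_rpow (by linarith), mul_zero] at h5
    exact h5.trans (by positivity)
  · refine h5.trans ?_
    have h6 : ‖P.gr x ξ 0‖ ^ κ' = ‖P.gr x ξ 0‖ ^ (κ' - κ) * ‖P.gr x ξ 0‖ ^ κ := by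
      rw [← Real.rpow_add h0]
      congr 1
      ring
    have h7 : ‖P.gr x ξ 0‖ ^ (κ' - κ) ≤ |ε₀| ^ (κ' - κ) :=
      Real.rpow_le_rpow h0.le (hx.2.trans (le_abs_self _)) (sub_nonneg.2 (le_max_left _ _))
    have h8 := mul_le_mul_of_nonneg_left (mul_le_mul_of_nonneg_right h7
      (Real.rpow_nonneg h0.le κ)) hC
    rw [h6]
    calc C * (‖P.gr x ξ 0‖ ^ (κ' - κ) * ‖P.gr x ξ 0‖ ^ κ)
        ≤ C * (|ε₀| ^ (κ' - κ) * ‖P.gr x ξ 0‖ ^ κ) := h8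
      _ = C * |ε₀| ^ (κ' - κ) * ‖P.gr x ξ 0‖ ^ κ := by ring

/-- the Harnack inequality -/
theorem harnack_of (hB : DlB P) (hR : P.RateP) (hA : AngR P) (hD : DeltaP P) (hN : NearP P) :
    ∃ H, 0 < H ∧ ∀ x ξ, 0 < P.Bu.nu x ξ 0 → ∀ q ∈ ball (0 : E2) 1,
      ‖P.gr x ξ q‖ ≤ H * ‖P.gr x ξ 0‖ := by
  have hb : 0 < P.Ra.b := P.Ra.a_pos.trans_le P.Ra.a_le_b
  have hab : P.Ra.b < 2 * P.Ra.a := by
    have := P.Ra.pinch
    have := P.Ra.a_pos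
    linarith
  have h1 : 1 < 2 * P.Ra.a / P.Ra.b := by rwa [lt_div_iff₀ hb, one_mul]
  have h3 : (1 + 2 * P.Ra.a / P.Ra.b) / 2 * P.Ra.b < 2 * P.Ra.a := by
    rw [← lt_div_iff₀ hb]
    linarith
  obtain ⟨H, hH, h⟩ := t2_aux hB hR hA hD hN
    (by linarith : 1 < (1 + 2 * P.Ra.a / P.Ra.b) / 2) h3
  obtain ⟨C, -, h'⟩ := h 2 le_rfl
  exact ⟨H, hH, fun x ξ hx q hq => (h' x ξ hx q hq).1⟩

end Vale.Agent.P207.N4.W.H469

end
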